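import Vale.Agent.H10.Pattern.Block

/-!
# P037: the polynomial removal lemma, with explicit constants, for all patterns with a `2 × 2`
block structure and for all `2 × 2` patterns

Let `0 < s < K` and `0 < t < K`, let `H₀` be a binary `2 × 2` pattern, and let
`H = blockPattern K s t H₀` be the `K × K` pattern with the entry `H₀(a, b)` at `(i, j)`, where
`a = 0` for the first `s` rows and `a = 1` for the others, and `b = 0` for the first `t` columns
and `b = 1` for the others.  Put `P = s (K - s) t (K - t)`.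

1. Every binary `n × n` matrix `A` with `dist_H(A) ≥ ε` contains at least
   `(10⁻¹³ᴾ / (4 K²))^(2K) · ε^(20 K P) · n^(2K)` ordered copies of `H`.
2. For every binary `2 × 2` pattern `H`, every binary `n × n` matrix `A` with `dist_H(A) ≥ ε`
   contains at least `10⁻¹³ ε¹⁰ n⁴` ordered copies of `H`.

The second part is the case `K = 2`, `s = t = 1` of the first with better constants.  The
definitions `copies`, `copyCount`, `IsFree`, `dist` are in `Vale/Agent/H10/Pattern/Defs.lean`, and
`blockPattern` is in `Vale/Agent/H10/Pattern/BlockDefs.lean`.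
-/

namespace Vale.Agent.Results.P037.A000_ExplicitBlockPatterns

open Vale.Agent.H10.Pattern

/-- **Polynomial removal lemma with explicit constants**: for all patterns with a `2 × 2` block
structure, and (with better constants) for all `2 × 2` patterns. -/
theorem result :
    (∀ (K s t : ℕ), 0 < s → s < K → 0 < t → t < K → ∀ H : Fin 2 → Fin 2 → Bool,
      ∀ n : ℕ, 1 ≤ n → ∀ ε : ℝ, 0 < ε → ε < 1 →
        ∀ A : Fin n → Fin n → Bool, ε ≤ dist (blockPattern K s t H) A →
          ((1 / 10 ^ 13 : ℝ) ^ (s * (K - s) * t * (K - t)) / (4 * (K : ℝ) * (K : ℝ))) ^ (2 * K)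
              * ε ^ (10 * (s * (K - s) * t * (K - t)) * (2 * K)) * (n : ℝ) ^ (2 * K)
            ≤ (copyCount (blockPattern K s t H) A : ℝ)) ∧
    (∀ (H : Fin 2 → Fin 2 → Bool) (n : ℕ), 1 ≤ n → ∀ (ε : ℝ), 0 < ε → ε < 1 →
      ∀ A : Fin n → Fin n → Bool, ε ≤ dist H A →
        (1 / 10 ^ 13 : ℝ) * ε ^ 10 * (n : ℝ) ^ 4 ≤ (copyCount H A : ℝ)) := by
  refine ⟨?_, ?_⟩
  · intro K s t hs0 hsK ht0 htK H n hn ε hε0 hε1 A hdist
    exact polyRemoval_block hs0 hsK ht0 htK H n hn ε hε0 hε1 A hdist
  · intro H n hn ε hε0 hε1 A hdist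
    exact polyRemoval_two H n hn ε hε0 hε1 A hdist

end Vale.Agent.Results.P037.A000_ExplicitBlockPatterns
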