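import Vale.Agent.H10.Pattern.Block

/-!
# P037: the polynomial removal lemma for all patterns with a `2 × 2` block structure

Let `K ≥ 2`, let `0 < s < K` and `0 < t < K`, and let `H₀` be a binary `2 × 2` pattern.  The
`K × K` pattern `blockPattern K s t H₀` has the entry `H₀(a, b)` at `(i, j)`, where `a = 0` for
the first `s` rows and `a = 1` for the others, and `b = 0` for the first `t` columns and `b = 1`
for the others.  For each of these patterns `H` there are constants `c > 0` and `C` such that
every binary `n × n` matrix `A` with `dist_H(A) ≥ ε` contains at least `c ε^C n^(2K)` ordered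
copies of `H`.  For `K = 2` these are all sixteen `2 × 2` patterns.  The definitions `copies`,
`copyCount`, `IsFree`, `dist` are in `Vale/Agent/H10/Pattern/Defs.lean`, and `blockPattern` is
in `Vale/Agent/H10/Pattern/BlockDefs.lean`.
-/

namespace Vale.Agent.Results.P037.A00_BlockPatterns

open Vale.Agent.H10.Pattern

/-- **Polynomial removal lemma for all patterns with a `2 × 2` block structure.** -/
theorem result :
    ∀ (K s t : ℕ), 0 < s → s < K → 0 < t → t < K → ∀ H : Fin 2 → Fin 2 → Bool,
      ∃ c : ℝ, 0 < c ∧ ∃ C : ℕ, ∀ n : ℕ, 1 ≤ n → ∀ ε : ℝ, 0 < ε → ε < 1 →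
        ∀ A : Fin n → Fin n → Bool, ε ≤ dist (blockPattern K s t H) A →
          c * ε ^ C * (n : ℝ) ^ (2 * K) ≤ (copyCount (blockPattern K s t H) A : ℝ) := by
  intro K s t hs0 hsK ht0 htK H
  have hK : (0 : ℝ) < K := by
    have : 0 < K := by omega
    exact_mod_cast this
  refine ⟨((1 / 10 ^ 13 : ℝ) ^ (s * (K - s) * t * (K - t)) / (4 * K * K)) ^ (2 * K), by positivity,
    10 * (s * (K - s) * t * (K - t)) * (2 * K), ?_⟩
  exact polyRemoval_block hs0 hsK ht0 htK H

end Vale.Agent.Results.P037.A00_BlockPatterns
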