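import Vale.Agent.H10.Pattern.All

/-!
# P037: the polynomial removal lemma for every `2 × 2` pattern

For every binary `2 × 2` pattern `H`, every binary `n × n` matrix `A` with `dist_H(A) ≥ ε`
contains at least `10⁻¹³ ε¹⁰ n⁴` ordered copies of `H`.  This is the statement of the
conjecture for all patterns with `k = 2`, with the uniform constants `c_H = 10⁻¹³` and
`C_H = 10`.  The definitions `copies`, `copyCount`, `IsFree`, `dist` are in
`Vale/Agent/H10/Pattern/Defs.lean`.
-/

namespace Vale.Agent.Results.P037.A0_AllTwoByTwo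

open Vale.Agent.H10.Pattern

/-- **Polynomial removal lemma for all `2 × 2` patterns.**  For every binary `2 × 2` pattern
`H`: if `dist_H(A) ≥ ε` then `N_H(A) ≥ 10⁻¹³ ε¹⁰ n⁴`. -/
theorem result :
    ∀ (H : Fin 2 → Fin 2 → Bool) (n : ℕ), 1 ≤ n → ∀ (ε : ℝ), 0 < ε → ε < 1 →
      ∀ A : Fin n → Fin n → Bool, ε ≤ dist H A →
        (1 / 10 ^ 13 : ℝ) * ε ^ 10 * (n : ℝ) ^ 4 ≤ (copyCount H A : ℝ) := by
  intro H n hn ε hε0 hε1 A hdist
  exact polyRemoval_two H n hn ε hε0 hε1 A hdist

end Vale.Agent.Results.P037.A0_AllTwoByTwo
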