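import Vale.Agent.H10.Removal.Main

/-!
# P037: the polynomial removal lemma for the `2 × 2` identity pattern

For the pattern `H = [[1, 0], [0, 1]]`, every binary `n × n` matrix `A` with
`dist_H(A) ≥ ε` contains at least `10⁻¹² ε¹⁰ n⁴` ordered copies of `H`.
This is the statement of the conjecture for this `H`, with `c_H = 10⁻¹²` and `C_H = 10`.
-/

namespace Vale.Agent.Results.P037.A_IdentityPattern

open Finset

/-- The ordered copies of the `k × k` pattern `H` in the `n × n` matrix `A`: a strictly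
increasing choice of rows and a strictly increasing choice of columns on which `A` equals `H`. -/
def copies {k n : ℕ} (H : Fin k → Fin k → Bool) (A : Fin n → Fin n → Bool) :
    Set ((Fin k → Fin n) × (Fin k → Fin n)) :=
  {p | StrictMono p.1 ∧ StrictMono p.2 ∧ ∀ i j, A (p.1 i) (p.2 j) = H i j}

/-- `N_H(A)`, the number of ordered copies of `H` in `A`. -/
noncomputable def copyCount {k n : ℕ} (H : Fin k → Fin k → Bool) (A : Fin n → Fin n → Bool) : ℕ :=
  (copies H A).ncard

/-- `A` is `H`-free. -/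
def IsFree {k n : ℕ} (H : Fin k → Fin k → Bool) (A : Fin n → Fin n → Bool) : Prop :=
  copies H A = ∅

/-- `dist_H(A)`: the least number of entries in which `A` differs from an `H`-free matrix,
divided by `n²`. -/
noncomputable def dist {k n : ℕ} (H : Fin k → Fin k → Bool) (A : Fin n → Fin n → Bool) : ℝ :=
  sInf {x : ℝ | ∃ B : Fin n → Fin n → Bool, IsFree H B ∧
    x = ((univ.filter fun p : Fin n × Fin n => A p.1 p.2 ≠ B p.1 p.2).card : ℝ) / (n : ℝ) ^ 2}

/-- The `2 × 2` identity pattern `[[1, 0], [0, 1]]`. -/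
def identityPattern : Fin 2 → Fin 2 → Bool := fun i j => decide (i = j)

open Vale.Agent.H10.Removal in
theorem free_bridge {n : ℕ} (B : Fin n → Fin n → Bool) (hB : Free B) :
    IsFree identityPattern B := by
  rw [IsFree, Set.eq_empty_iff_forall_notMem]
  rintro p ⟨h1, h2, h3⟩
  apply hB (p.1 0) (p.1 1) (p.2 0) (p.2 1)
  refine ⟨h1 (by decide), h2 (by decide), ?_, ?_, ?_, ?_⟩
  · rw [h3]; rfl
  · rw [h3]; rfl
  · rw [h3]; rfl
  · rw [h3]; rfl

open Vale.Agent.H10.Removal in
theorem count_bridge {n : ℕ} (A : Fin n → Fin n → Bool) :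
    copNum A ≤ copyCount identityPattern A := by
  classical
  have h1 : copNum A = ((univ : Finset ((Fin n × Fin n) × (Fin n × Fin n))).filter
      fun x => IsCop A x.1.1 x.1.2 x.2.1 x.2.2).card := by
    rw [copNum, card_filter, Fintype.sum_prod_type, Fintype.sum_prod_type]
    apply sum_congr rfl
    intro k1 _
    apply sum_congr rfl
    intro k2 _
    rw [pairCop, card_filter]
  rw [h1, copyCount, ← Set.ncard_coe_finset]
  set f : (Fin n × Fin n) × (Fin n × Fin n) → (Fin 2 → Fin n) × (Fin 2 → Fin n) :=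
    fun x => (![x.1.1, x.1.2], ![x.2.1, x.2.2]) with hf
  have hinj : Function.Injective f := by
    intro x y hxy
    rw [hf] at hxy
    simp only [Prod.mk.injEq] at hxy
    obtain ⟨ha, hb⟩ := hxy
    have a0 := congrFun ha 0
    have a1 := congrFun ha 1
    have b0 := congrFun hb 0
    have b1 := congrFun hb 1
    simp only [Matrix.cons_val_zero, Matrix.cons_val_one] at a0 a1 b0 b1
    exact Prod.ext (Prod.ext a0 a1) (Prod.ext b0 b1)
  have hsub : f '' (((univ : Finset ((Fin n × Fin n) × (Fin n × Fin n))).filter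
      fun x => IsCop A x.1.1 x.1.2 x.2.1 x.2.2 : Finset _) : Set _) ⊆ copies identityPattern A := by
    rintro _ ⟨x, hx, rfl⟩
    rw [mem_coe, mem_filter] at hx
    obtain ⟨_, hij, hcc, e1, e2, e3, e4⟩ := hx
    refine ⟨?_, ?_, ?_⟩
    · intro i j hlt
      fin_cases i <;> fin_cases j <;> simp_all [hf]
    · intro i j hlt
      fin_cases i <;> fin_cases j <;> simp_all [hf]
    · intro i j
      fin_cases i <;> fin_cases j <;> simp [hf, identityPattern, e1, e2, e3, e4]
  calc _ = (f '' (((univ : Finset ((Fin n × Fin n) × (Fin n × Fin n))).filter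
      fun x => IsCop A x.1.1 x.1.2 x.2.1 x.2.2 : Finset _) : Set _)).ncard :=
        (Set.ncard_image_of_injective _ hinj).symm
    _ ≤ (copies identityPattern A).ncard := Set.ncard_le_ncard hsub (Set.toFinite _)

/-- **Polynomial removal lemma for the `2 × 2` identity pattern.**  If `dist_H(A) ≥ ε` for
`H = [[1, 0], [0, 1]]`, then `N_H(A) ≥ 10⁻¹² ε¹⁰ n⁴`. -/
theorem result :
    ∀ (n : ℕ), 1 ≤ n → ∀ (ε : ℝ), 0 < ε → ε < 1 → ∀ A : Fin n → Fin n → Bool,
      ε ≤ dist identityPattern A →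
      (1 / 10 ^ 12 : ℝ) * ε ^ 10 * (n : ℝ) ^ 4 ≤ (copyCount identityPattern A : ℝ) := by
  intro n hn ε hε0 hε1 A hdist
  by_contra hcon
  have hlt : (copyCount identityPattern A : ℝ) < 1 / 10 ^ 12 * ε ^ 10 * (n : ℝ) ^ 4 :=
    not_le.mp hcon
  have hle : (Vale.Agent.H10.Removal.copNum A : ℝ) ≤ (copyCount identityPattern A : ℝ) := by
    exact_mod_cast count_bridge A
  obtain ⟨B, hB, hdiff⟩ :=
    Vale.Agent.H10.Removal.removal_ident hn hε0 hε1 A (lt_of_le_of_lt hle hlt)
  have hn0 : (0 : ℝ) < (n : ℝ) ^ 2 := by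
    have : (1 : ℝ) ≤ n := by exact_mod_cast hn
    positivity
  have hmem : ((univ.filter fun p : Fin n × Fin n => A p.1 p.2 ≠ B p.1 p.2).card : ℝ) /
      (n : ℝ) ^ 2 ∈ {x : ℝ | ∃ B : Fin n → Fin n → Bool, IsFree identityPattern B ∧
        x = ((univ.filter fun p : Fin n × Fin n => A p.1 p.2 ≠ B p.1 p.2).card : ℝ) /
          (n : ℝ) ^ 2} :=
    ⟨B, free_bridge B hB, rfl⟩
  have hbdd : BddBelow {x : ℝ | ∃ B : Fin n → Fin n → Bool, IsFree identityPattern B ∧
      x = ((univ.filter fun p : Fin n × Fin n => A p.1 p.2 ≠ B p.1 p.2).card : ℝ) /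
        (n : ℝ) ^ 2} := by
    refine ⟨0, ?_⟩
    rintro x ⟨B', _, rfl⟩
    positivity
  have h1 : dist identityPattern A ≤
      ((univ.filter fun p : Fin n × Fin n => A p.1 p.2 ≠ B p.1 p.2).card : ℝ) / (n : ℝ) ^ 2 :=
    csInf_le hbdd hmem
  have h2 : ε ≤ ((univ.filter fun p : Fin n × Fin n => A p.1 p.2 ≠ B p.1 p.2).card : ℝ) /
      (n : ℝ) ^ 2 := le_trans hdist h1
  rw [le_div_iff₀ hn0] at h2
  have h3 : ((Vale.Agent.H10.Removal.diffSet A B).card : ℝ) =
      ((univ.filter fun p : Fin n × Fin n => A p.1 p.2 ≠ B p.1 p.2).card : ℝ) := rfl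
  rw [h3] at hdiff
  linarith

end Vale.Agent.Results.P037.A_IdentityPattern
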