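import Vale.Agent.H10.Pattern.Base

/-!
# P037: the polynomial removal lemma for the `2 × 2` pattern `[[1, 1], [1, 0]]`

For the pattern `H = [[1, 1], [1, 0]]`, every binary `n × n` matrix `A` with
`dist_H(A) ≥ ε` contains at least `10⁻¹³ ε¹⁰ n⁴` ordered copies of `H`.
This is the statement of the conjecture for this `H`, with `c_H = 10⁻¹³` and `C_H = 10`.
The definitions `copies`, `copyCount`, `IsFree`, `dist` are in
`Vale/Agent/H10/Pattern/Defs.lean`.
-/

namespace Vale.Agent.Results.P037.B_GammaPattern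

open Vale.Agent.H10.Pattern

/-- **Polynomial removal lemma for the `2 × 2` pattern `[[1, 1], [1, 0]]`.**  If
`dist_H(A) ≥ ε` for `H = [[1, 1], [1, 0]]`, then `N_H(A) ≥ 10⁻¹³ ε¹⁰ n⁴`. -/
theorem result :
    ∀ (n : ℕ), 1 ≤ n → ∀ (ε : ℝ), 0 < ε → ε < 1 → ∀ A : Fin n → Fin n → Bool,
      ε ≤ dist ![![true, true], ![true, false]] A →
      (1 / 10 ^ 13 : ℝ) * ε ^ 10 * (n : ℝ) ^ 4 ≤
        (copyCount ![![true, true], ![true, false]] A : ℝ) := by
  intro n hn ε hε0 hε1 A hdist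
  exact polyRemoval_gamma n hn ε hε0 hε1 A hdist

end Vale.Agent.Results.P037.B_GammaPattern
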